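import Vale.Agent.P154.D7.K5.Data
import Vale.Agent.P154.ApxLemma

set_option maxRecDepth 100000

namespace Vale.Agent.P154.D7.K5

open PolyR Cert InT OutT

/-- The quotient polynomial for `j = 1`. -/
noncomputable def S1 (u : ℝ) : ℝ :=
  (-339 / 16777216 : ℝ) * u ^ 0 + (15 / 1048576 : ℝ) * u ^ 1 + (105951 / 16777216 : ℝ) * u ^ 2 + (-158873 / 16777216 : ℝ) * u ^ 3 + (-2140813 / 8388608 : ℝ) * u ^ 4 + (12759835 / 16777216 : ℝ) * u ^ 5

/-- Certificate polynomial. -/
def lpu1 : List ITm := [⟨(-4188632965087890625000000000),0,0⟩,⟨(-187091571807861328125000000),1,0⟩,⟨52809531110855859375000000000,2,0⟩,⟨(-22629290784819947353125000000),3,0⟩,⟨(-174278242254388691161672650000),4,0⟩,⟨148420228499286142914678946167,5,0⟩]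

/-- Certificate tree. -/
def tpu1 : OutT := (A (A (O l) (A (A (O l) (O l)) (A (A (O l) (A (O l) (O l))) (A (A (O l) (O l)) (A (O l) (O l)))))) (A (A (A (A (O l) (O l)) (A (O l) (O l))) (A (O l) (O l))) (A (A (O l) (O l)) (A (O l) (A (O l) (A (O l) (A (O l) (O l))))))))

theorem hpu1 (x : ℝ) (h0 : 0 ≤ x) (h1 : x ≤ 1) : evalIL lpu1 x 0 ≤ 0 :=
  uni_le 5 65536 lpu1 (by norm_num) (by norm_num) (by decide +kernel)
    (chkOut_sound (uniPb 5 65536 lpu1) tpu1 0 32768 0 32768 (by decide +kernel)) x h0 h1

/-- Certificate polynomial. -/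
def lpl1 : List ITm := [⟨(-50449371337890625000000000),0,0⟩,⟨(-1024302509307861328125000000),1,0⟩,⟨(-52809531110855859375000000000),2,0⟩,⟨22629290784819947353125000000,3,0⟩,⟨174278242254388691161672650000,4,0⟩,⟨(-148420228499286142914678946167),5,0⟩]

/-- Certificate tree. -/
def tpl1 : OutT := (A (A (A (A (A (O l) (O l)) (O l)) (O l)) (A (O l) (O l))) (A (A (O l) (A (O l) (A (O l) (O l)))) (A (A (A (O l) (A (O l) (O l))) (A (A (A (O l) (O l)) (A (O l) (O l))) (A (A (O l) (O l)) (A (O l) (O l))))) (A (A (A (O l) (O l)) (O l)) (A (O l) (O l))))))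

theorem hpl1 (x : ℝ) (h0 : 0 ≤ x) (h1 : x ≤ 1) : evalIL lpl1 x 0 ≤ 0 :=
  uni_le 5 65536 lpl1 (by norm_num) (by norm_num) (by decide +kernel)
    (chkOut_sound (uniPb 5 65536 lpl1) tpl1 0 32768 0 32768 (by decide +kernel)) x h0 h1

/-- Certificate polynomial. -/
def lnu1 : List ITm := [⟨(-134036254882812500000000000000),0,0⟩,⟨2993465148925781250000000000,1,0⟩,⟨422476248886846875000000000000,2,0⟩,⟨90517163139279789412500000000,3,0⟩,⟨(-348556484508777382323345300000),4,0⟩,⟨(-148420228499286142914678946167),5,0⟩]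

/-- Certificate tree. -/
def tnu1 : OutT := (A (O l) (A (A (O l) (A (O l) (A (O l) (O l)))) (A (A (A (O l) (O l)) (O l)) (O l))))

theorem hnu1 (x : ℝ) (h0 : 0 ≤ x) (h1 : x ≤ 1) : evalIL lnu1 x 0 ≤ 0 :=
  uni_le 5 65536 lnu1 (by norm_num) (by norm_num) (by decide +kernel)
    (chkOut_sound (uniPb 5 65536 lnu1) tnu1 0 32768 0 32768 (by decide +kernel)) x h0 h1

/-- Certificate polynomial. -/
def lnl1 : List ITm := [⟨(-1614379882812500000000000000),0,0⟩,⟨16388840148925781250000000000,1,0⟩,⟨(-422476248886846875000000000000),2,0⟩,⟨(-90517163139279789412500000000),3,0⟩,⟨348556484508777382323345300000,4,0⟩,⟨148420228499286142914678946167,5,0⟩]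

/-- Certificate tree. -/
def tnl1 : OutT := (A (A (A (A (O l) (O l)) (O l)) (O l)) (A (O l) (A (O l) (A (O l) (A (O l) (O l))))))

theorem hnl1 (x : ℝ) (h0 : 0 ≤ x) (h1 : x ≤ 1) : evalIL lnl1 x 0 ≤ 0 :=
  uni_le 5 65536 lnl1 (by norm_num) (by norm_num) (by decide +kernel)
    (chkOut_sound (uniPb 5 65536 lnl1) tnl1 0 32768 0 32768 (by decide +kernel)) x h0 h1

theorem apx1 (u : ℝ) (h0 : -(35721 / 250000 : ℝ) ≤ u) (h1 : u ≤ 2 * (35721 / 250000 : ℝ)) :
    |((1 + u)⁻¹) ^ 1 - evalZ Ax.p1 (3 * u) / Ax.D1| ≤ Ax.e1 * |u| ^ Ax.m1 := by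
  have hu : 0 < 1 + u := by norm_num at h0 ⊢; linarith
  refine apx_of_S 1 2 _ (S1 u) _ u hu ?_ ?_ ?_
  · simp only [Ax, evalZ_cons, evalZ_nil, S1]
    push_cast
    ring
  · rcases le_total 0 u with hs | hs
    · have hx := hpu1 (u / (2 * (35721 / 250000 : ℝ))) (by positivity) (by rw [div_le_one (by norm_num)]; exact h1)
      have e : evalIL lpu1 (u / (2 * (35721 / 250000 : ℝ))) 0 = 102400000000000000000000000000000 * (S1 u - Ax.e1 * (1 + u) ^ 1) := by
        simp only [lpu1, evalIL, List.map_cons, List.map_nil, List.sum_cons, List.sum_nil, S1, Ax]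
        push_cast
        ring
      rw [e] at hx
      have := cmul_nonpos (by norm_num) hx
      simp only [Ax] at this ⊢
      linarith
    · have hx := hnu1 (-u / (35721 / 250000 : ℝ)) (by apply div_nonneg <;> [linarith; norm_num]) (by rw [div_le_one (by norm_num)]; linarith)
      have e : evalIL lnu1 (-u / (35721 / 250000 : ℝ)) 0 = 3276800000000000000000000000000000 * (S1 u - Ax.e1 * (1 + u) ^ 1) := by
        simp only [lnu1, evalIL, List.map_cons, List.map_nil, List.sum_cons, List.sum_nil, S1, Ax]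
        push_cast
        ring
      rw [e] at hx
      have := cmul_nonpos (by norm_num) hx
      simp only [Ax] at this ⊢
      linarith
  · rcases le_total 0 u with hs | hs
    · have hx := hpl1 (u / (2 * (35721 / 250000 : ℝ))) (by positivity) (by rw [div_le_one (by norm_num)]; exact h1)
      have e : evalIL lpl1 (u / (2 * (35721 / 250000 : ℝ))) 0 = 102400000000000000000000000000000 * (-S1 u - Ax.e1 * (1 + u) ^ 1) := by
        simp only [lpl1, evalIL, List.map_cons, List.map_nil, List.sum_cons, List.sum_nil, S1, Ax]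
        push_cast
        ring
      rw [e] at hx
      have := cmul_nonpos (by norm_num) hx
      simp only [Ax] at this ⊢
      linarith
    · have hx := hnl1 (-u / (35721 / 250000 : ℝ)) (by apply div_nonneg <;> [linarith; norm_num]) (by rw [div_le_one (by norm_num)]; linarith)
      have e : evalIL lnl1 (-u / (35721 / 250000 : ℝ)) 0 = 3276800000000000000000000000000000 * (-S1 u - Ax.e1 * (1 + u) ^ 1) := by
        simp only [lnl1, evalIL, List.map_cons, List.map_nil, List.sum_cons, List.sum_nil, S1, Ax]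
        push_cast
        ring
      rw [e] at hx
      have := cmul_nonpos (by norm_num) hx
      simp only [Ax] at this ⊢
      linarith

/-- The quotient polynomial for `j = 2`. -/
noncomputable def S2 (u : ℝ) : ℝ :=
  (-1313 / 8388608 : ℝ) * u ^ 0 + (867 / 16777216 : ℝ) * u ^ 1 + (824893 / 16777216 : ℝ) * u ^ 2 + (-595761 / 16777216 : ℝ) * u ^ 3 + (-34295695 / 16777216 : ℝ) * u ^ 4 + (35346551 / 8388608 : ℝ) * u ^ 5 + (21698605 / 4194304 : ℝ) * u ^ 6

/-- Certificate polynomial. -/
def lpu2 : List ITm := [⟨(-1014029979705810546875000000000000),0,0⟩,⟨(-246032911491394042968750000000000),1,0⟩,⟨12806666467213959503173828125000000,2,0⟩,⟨(-2651813261861501925878906250000000),3,0⟩,⟨(-43623858096584006312160386718750000),4,0⟩,⟨25696566492051381905246952739387500,5,0⟩,⟨9015783199097708212094038044600441,6,0⟩]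

/-- Certificate tree. -/
def tpu2 : OutT := (A (A (O l) (A (A (O l) (O l)) (A (A (O l) (A (O l) (O l))) (A (A (O l) (O l)) (A (O l) (O l)))))) (A (A (A (A (O l) (O l)) (O l)) (A (O l) (O l))) (A (A (O l) (O l)) (A (O l) (A (O l) (A (O l) (A (O l) (O l))))))))

theorem hpu2 (x : ℝ) (h0 : 0 ≤ x) (h1 : x ≤ 1) : evalIL lpu2 x 0 ≤ 0 :=
  uni_le 6 65536 lpu2 (by norm_num) (by norm_num) (by decide +kernel)
    (chkOut_sound (uniPb 6 65536 lpu2) tpu2 0 32768 0 32768 (by decide +kernel)) x h0 h1

/-- Certificate polynomial. -/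
def lpl2 : List ITm := [⟨(-12290477752685546875000000000000),0,0⟩,⟨(-340546177482604980468750000000000),1,0⟩,⟨(-12890479233762920379638671875000000),2,0⟩,⟨2651813261861501925878906250000000,3,0⟩,⟨43623858096584006312160386718750000,4,0⟩,⟨(-25696566492051381905246952739387500),5,0⟩,⟨(-9015783199097708212094038044600441),6,0⟩]

/-- Certificate tree. -/
def tpl2 : OutT := (A (A (A (A (A (O l) (O l)) (O l)) (O l)) (A (O l) (O l))) (A (A (O l) (A (O l) (O l))) (A (A (A (O l) (A (O l) (O l))) (A (A (O l) (A (O l) (O l))) (A (A (O l) (O l)) (A (O l) (O l))))) (A (A (A (O l) (O l)) (O l)) (A (O l) (O l))))))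

theorem hpl2 (x : ℝ) (h0 : 0 ≤ x) (h1 : x ≤ 1) : evalIL lpl2 x 0 ≤ 0 :=
  uni_le 6 65536 lpl2 (by norm_num) (by norm_num) (by decide +kernel)
    (chkOut_sound (uniPb 6 65536 lpl2) tpl2 0 32768 0 32768 (by decide +kernel)) x h0 h1

/-- Certificate polynomial. -/
def lnu2 : List ITm := [⟨(-64897918701171875000000000000000000),0,0⟩,⟨7873053167724609375000000000000000,1,0⟩,⟨204906663475423352050781250000000000,2,0⟩,⟨21214506094892015407031250000000000,3,0⟩,⟨(-174495432386336025248641546875000000),4,0⟩,⟨(-51393132984102763810493905478775000),5,0⟩,⟨9015783199097708212094038044600441,6,0⟩]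

/-- Certificate tree. -/
def tnu2 : OutT := (A (O l) (A (A (O l) (A (O l) (A (O l) (O l)))) (A (A (A (O l) (O l)) (O l)) (O l))))

theorem hnu2 (x : ℝ) (h0 : 0 ≤ x) (h1 : x ≤ 1) : evalIL lnu2 x 0 ≤ 0 :=
  uni_le 6 65536 lnu2 (by norm_num) (by norm_num) (by decide +kernel)
    (chkOut_sound (uniPb 6 65536 lnu2) tnu2 0 32768 0 32768 (by decide +kernel)) x h0 h1

/-- Certificate polynomial. -/
def lnl2 : List ITm := [⟨(-786590576171875000000000000000000),0,0⟩,⟨10897477679443359375000000000000000,1,0⟩,⟨(-206247667740206726074218750000000000),2,0⟩,⟨(-21214506094892015407031250000000000),3,0⟩,⟨174495432386336025248641546875000000,4,0⟩,⟨51393132984102763810493905478775000,5,0⟩,⟨(-9015783199097708212094038044600441),6,0⟩]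

/-- Certificate tree. -/
def tnl2 : OutT := (A (A (A (A (O l) (O l)) (O l)) (O l)) (A (O l) (A (O l) (A (O l) (A (O l) (O l))))))

theorem hnl2 (x : ℝ) (h0 : 0 ≤ x) (h1 : x ≤ 1) : evalIL lnl2 x 0 ≤ 0 :=
  uni_le 6 65536 lnl2 (by norm_num) (by norm_num) (by decide +kernel)
    (chkOut_sound (uniPb 6 65536 lnl2) tnl2 0 32768 0 32768 (by decide +kernel)) x h0 h1

theorem apx2 (u : ℝ) (h0 : -(35721 / 250000 : ℝ) ≤ u) (h1 : u ≤ 2 * (35721 / 250000 : ℝ)) :
    |((1 + u)⁻¹) ^ 2 - evalZ Ax.p2 (3 * u) / Ax.D2| ≤ Ax.e2 * |u| ^ Ax.m2 := by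
  have hu : 0 < 1 + u := by norm_num at h0 ⊢; linarith
  refine apx_of_S 2 2 _ (S2 u) _ u hu ?_ ?_ ?_
  · simp only [Ax, evalZ_cons, evalZ_nil, S2]
    push_cast
    ring
  · rcases le_total 0 u with hs | hs
    · have hx := hpu2 (u / (2 * (35721 / 250000 : ℝ))) (by positivity) (by rw [div_le_one (by norm_num)]; exact h1)
      have e : evalIL lpu2 (u / (2 * (35721 / 250000 : ℝ))) 0 = 3200000000000000000000000000000000000 * (S2 u - Ax.e2 * (1 + u) ^ 2) := by
        simp only [lpu2, evalIL, List.map_cons, List.map_nil, List.sum_cons, List.sum_nil, S2, Ax]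
        push_cast
        ring
      rw [e] at hx
      have := cmul_nonpos (by norm_num) hx
      simp only [Ax] at this ⊢
      linarith
    · have hx := hnu2 (-u / (35721 / 250000 : ℝ)) (by apply div_nonneg <;> [linarith; norm_num]) (by rw [div_le_one (by norm_num)]; linarith)
      have e : evalIL lnu2 (-u / (35721 / 250000 : ℝ)) 0 = 204800000000000000000000000000000000000 * (S2 u - Ax.e2 * (1 + u) ^ 2) := by
        simp only [lnu2, evalIL, List.map_cons, List.map_nil, List.sum_cons, List.sum_nil, S2, Ax]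
        push_cast
        ring
      rw [e] at hx
      have := cmul_nonpos (by norm_num) hx
      simp only [Ax] at this ⊢
      linarith
  · rcases le_total 0 u with hs | hs
    · have hx := hpl2 (u / (2 * (35721 / 250000 : ℝ))) (by positivity) (by rw [div_le_one (by norm_num)]; exact h1)
      have e : evalIL lpl2 (u / (2 * (35721 / 250000 : ℝ))) 0 = 3200000000000000000000000000000000000 * (-S2 u - Ax.e2 * (1 + u) ^ 2) := by
        simp only [lpl2, evalIL, List.map_cons, List.map_nil, List.sum_cons, List.sum_nil, S2, Ax]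
        push_cast
        ring
      rw [e] at hx
      have := cmul_nonpos (by norm_num) hx
      simp only [Ax] at this ⊢
      linarith
    · have hx := hnl2 (-u / (35721 / 250000 : ℝ)) (by apply div_nonneg <;> [linarith; norm_num]) (by rw [div_le_one (by norm_num)]; linarith)
      have e : evalIL lnl2 (-u / (35721 / 250000 : ℝ)) 0 = 204800000000000000000000000000000000000 * (-S2 u - Ax.e2 * (1 + u) ^ 2) := by
        simp only [lnl2, evalIL, List.map_cons, List.map_nil, List.sum_cons, List.sum_nil, S2, Ax]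
        push_cast
        ring
      rw [e] at hx
      have := cmul_nonpos (by norm_num) hx
      simp only [Ax] at this ⊢
      linarith

/-- The quotient polynomial for `j = 3`. -/
noncomputable def S3 (u : ℝ) : ℝ :=
  (-39977 / 16777216 : ℝ) * u ^ 0 + (-1722661 / 16777216 : ℝ) * u ^ 1 + (4806961 / 16777216 : ℝ) * u ^ 2 + (52883223 / 8388608 : ℝ) * u ^ 3 + (-197931431 / 16777216 : ℝ) * u ^ 4 + (-551343185 / 16777216 : ℝ) * u ^ 5 + (-270912169 / 16777216 : ℝ) * u ^ 6

/-- Certificate polynomial. -/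
def lpu3 : List ITm := [⟨(-499791264533996582031250000000000000),0,0⟩,⟨(-2175638526629447937011718750000000000),1,0⟩,⟨1412386225608606605529785156250000000,2,0⟩,⟨9407512151267909510306579589843750000,3,0⟩,⟨(-5035344907748805546048236109375000000),4,0⟩,⟨(-4008206292402301453199839253023125000),5,0⟩,⟨(-562820831500762139931923706300756249),6,0⟩]

/-- Certificate tree. -/
def tpu3 : OutT := (A (A (O l) (O l)) (A (A (O l) (A (O l) (A (O l) (A (O l) (O l))))) (A (A (A (A (O l) (O l)) (O l)) (A (O l) (O l))) (A (O l) (O l)))))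

theorem hpu3 (x : ℝ) (h0 : 0 ≤ x) (h1 : x ≤ 1) : evalIL lpu3 x 0 ≤ 0 :=
  uni_le 6 65536 lpu3 (by norm_num) (by norm_num) (by decide +kernel)
    (chkOut_sound (uniPb 6 65536 lpu3) tpu3 0 32768 0 32768 (by decide +kernel)) x h0 h1

/-- Certificate polynomial. -/
def lpl3 : List ITm := [⟨(-194790959358215332031250000000000000),0,0⟩,⟨1580170407757759094238281250000000000,1,0⟩,⟨(-1582551959002331382751464843750000000),2,0⟩,⟨(-9423721458368062157685607910156250000),3,0⟩,⟨5035344907748805546048236109375000000,4,0⟩,⟨4008206292402301453199839253023125000,5,0⟩,⟨562820831500762139931923706300756249,6,0⟩]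

/-- Certificate tree. -/
def tpl3 : OutT := (A (A (A (O l) (A (A (O l) (O l)) (A (O l) (O l)))) (A (A (O l) (O l)) (O l))) (A (A (O l) (O l)) (A (O l) (A (O l) (A (O l) (O l))))))

theorem hpl3 (x : ℝ) (h0 : 0 ≤ x) (h1 : x ≤ 1) : evalIL lpl3 x 0 ≤ 0 :=
  uni_le 6 65536 lpl3 (by norm_num) (by norm_num) (by decide +kernel)
    (chkOut_sound (uniPb 6 65536 lpl3) tpl3 0 32768 0 32768 (by decide +kernel)) x h0 h1

/-- Certificate polynomial. -/
def lnu3 : List ITm := [⟨(-31986640930175781250000000000000000000),0,0⟩,⟨69620432852142333984375000000000000000,1,0⟩,⟨22598179609737705688476562500000000000,2,0⟩,⟨(-75260097210143276082452636718750000000),3,0⟩,⟨(-20141379630995222184192944437500000000),4,0⟩,⟨8016412584804602906399678506046250000,5,0⟩,⟨(-562820831500762139931923706300756249),6,0⟩]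

/-- Certificate tree. -/
def tnu3 : OutT := (A (A (O l) (A (O l) (O l))) (A (A (A (O l) (O l)) (A (A (O l) (O l)) (O l))) (A (O l) (O l))))

theorem hnu3 (x : ℝ) (h0 : 0 ≤ x) (h1 : x ≤ 1) : evalIL lnu3 x 0 ≤ 0 :=
  uni_le 6 65536 lnu3 (by norm_num) (by norm_num) (by decide +kernel)
    (chkOut_sound (uniPb 6 65536 lnu3) tnu3 0 32768 0 32768 (by decide +kernel)) x h0 h1

/-- Certificate polynomial. -/
def lnl3 : List ITm := [⟨(-12466621398925781250000000000000000000),0,0⟩,⟨(-50565453048248291015625000000000000000),1,0⟩,⟨(-25320831344037302124023437500000000000),2,0⟩,⟨75389771666944497261484863281250000000,3,0⟩,⟨20141379630995222184192944437500000000,4,0⟩,⟨(-8016412584804602906399678506046250000),5,0⟩,⟨562820831500762139931923706300756249,6,0⟩]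

/-- Certificate tree. -/
def tnl3 : OutT := (A (O l) (A (O l) (A (O l) (A (O l) (O l)))))

theorem hnl3 (x : ℝ) (h0 : 0 ≤ x) (h1 : x ≤ 1) : evalIL lnl3 x 0 ≤ 0 :=
  uni_le 6 65536 lnl3 (by norm_num) (by norm_num) (by decide +kernel)
    (chkOut_sound (uniPb 6 65536 lnl3) tnl3 0 32768 0 32768 (by decide +kernel)) x h0 h1

theorem apx3 (u : ℝ) (h0 : -(35721 / 250000 : ℝ) ≤ u) (h1 : u ≤ 2 * (35721 / 250000 : ℝ)) :
    |((1 + u)⁻¹) ^ 3 - evalZ Ax.p3 (3 * u) / Ax.D3| ≤ Ax.e3 * |u| ^ Ax.m3 := by
  have hu : 0 < 1 + u := by norm_num at h0 ⊢; linarith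
  refine apx_of_S 3 2 _ (S3 u) _ u hu ?_ ?_ ?_
  · simp only [Ax, evalZ_cons, evalZ_nil, S3]
    push_cast
    ring
  · rcases le_total 0 u with hs | hs
    · have hx := hpu3 (u / (2 * (35721 / 250000 : ℝ))) (by positivity) (by rw [div_le_one (by norm_num)]; exact h1)
      have e : evalIL lpu3 (u / (2 * (35721 / 250000 : ℝ))) 0 = 64000000000000000000000000000000000000 * (S3 u - Ax.e3 * (1 + u) ^ 3) := by
        simp only [lpu3, evalIL, List.map_cons, List.map_nil, List.sum_cons, List.sum_nil, S3, Ax]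
        push_cast
        ring
      rw [e] at hx
      have := cmul_nonpos (by norm_num) hx
      simp only [Ax] at this ⊢
      linarith
    · have hx := hnu3 (-u / (35721 / 250000 : ℝ)) (by apply div_nonneg <;> [linarith; norm_num]) (by rw [div_le_one (by norm_num)]; linarith)
      have e : evalIL lnu3 (-u / (35721 / 250000 : ℝ)) 0 = 4096000000000000000000000000000000000000 * (S3 u - Ax.e3 * (1 + u) ^ 3) := by
        simp only [lnu3, evalIL, List.map_cons, List.map_nil, List.sum_cons, List.sum_nil, S3, Ax]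
        push_cast
        ring
      rw [e] at hx
      have := cmul_nonpos (by norm_num) hx
      simp only [Ax] at this ⊢
      linarith
  · rcases le_total 0 u with hs | hs
    · have hx := hpl3 (u / (2 * (35721 / 250000 : ℝ))) (by positivity) (by rw [div_le_one (by norm_num)]; exact h1)
      have e : evalIL lpl3 (u / (2 * (35721 / 250000 : ℝ))) 0 = 64000000000000000000000000000000000000 * (-S3 u - Ax.e3 * (1 + u) ^ 3) := by
        simp only [lpl3, evalIL, List.map_cons, List.map_nil, List.sum_cons, List.sum_nil, S3, Ax]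
        push_cast
        ring
      rw [e] at hx
      have := cmul_nonpos (by norm_num) hx
      simp only [Ax] at this ⊢
      linarith
    · have hx := hnl3 (-u / (35721 / 250000 : ℝ)) (by apply div_nonneg <;> [linarith; norm_num]) (by rw [div_le_one (by norm_num)]; linarith)
      have e : evalIL lnl3 (-u / (35721 / 250000 : ℝ)) 0 = 4096000000000000000000000000000000000000 * (-S3 u - Ax.e3 * (1 + u) ^ 3) := by
        simp only [lnl3, evalIL, List.map_cons, List.map_nil, List.sum_cons, List.sum_nil, S3, Ax]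
        push_cast
        ring
      rw [e] at hx
      have := cmul_nonpos (by norm_num) hx
      simp only [Ax] at this ⊢
      linarith

/-- The quotient polynomial for `j = 4`. -/
noncomputable def S4 (u : ℝ) : ℝ :=
  (1157149 / 16777216 : ℝ) * u ^ 0 + (-7591497 / 8388608 : ℝ) * u ^ 1 + (-182814905 / 16777216 : ℝ) * u ^ 2 + (95809349 / 4194304 : ℝ) * u ^ 3 + (1607652395 / 16777216 : ℝ) * u ^ 4 + (775704287 / 8388608 : ℝ) * u ^ 5 + (476691121 / 16777216 : ℝ) * u ^ 6

/-- Certificate polynomial. -/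
def lpu4 : List ITm := [⟨(-2376906156539916992187500000000000000),0,0⟩,⟨(-24313953828941345214843750000000000000),1,0⟩,⟨(-60278167908713193145751953125000000000),2,0⟩,⟨33482908270141763554498535156250000000,3,0⟩,⟨40853138553386455013459326942382812500,4,0⟩,⟨11278575264140938881518759232621750000,5,0⟩,⟨990327212249555378365109819939399841,6,0⟩]

/-- Certificate tree. -/
def tpu4 : OutT := (A (A (O l) (O l)) (A (O l) (A (O l) (A (O l) (O l)))))

theorem hpu4 (x : ℝ) (h0 : 0 ≤ x) (h1 : x ≤ 1) : evalIL lpu4 x 0 ≤ 0 :=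
  uni_le 6 65536 lpu4 (by norm_num) (by norm_num) (by decide +kernel)
    (chkOut_sound (uniPb 6 65536 lpu4) tpu4 0 32768 0 32768 (by decide +kernel)) x h0 h1

/-- Certificate polynomial. -/
def lpl4 : List ITm := [⟨(-11205252408981323242187500000000000000),0,0⟩,⟨8788568673133850097656250000000000000,1,0⟩,⟨53623180510905998748779296875000000000,2,0⟩,⟨(-34750763229272807773454589843750000000),3,0⟩,⟨(-40943716647376695074549985401367187500),4,0⟩,⟨(-11278575264140938881518759232621750000),5,0⟩,⟨(-990327212249555378365109819939399841),6,0⟩]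

/-- Certificate tree. -/
def tpl4 : OutT := (A (A (O l) (A (O l) (A (O l) (O l)))) (A (A (A (A (O l) (O l)) (A (O l) (O l))) (A (O l) (O l))) (A (O l) (O l))))

theorem hpl4 (x : ℝ) (h0 : 0 ≤ x) (h1 : x ≤ 1) : evalIL lpl4 x 0 ≤ 0 :=
  uni_le 6 65536 lpl4 (by norm_num) (by norm_num) (by decide +kernel)
    (chkOut_sound (uniPb 6 65536 lpl4) tpl4 0 32768 0 32768 (by decide +kernel)) x h0 h1

/-- Certificate polynomial. -/
def lnu4 : List ITm := [⟨(-152121994018554687500000000000000000000),0,0⟩,⟨778046522526123046875000000000000000000,1,0⟩,⟨(-964450686539411090332031250000000000000),2,0⟩,⟨(-267863266161134108435988281250000000000),3,0⟩,⟨163412554213545820053837307769531250000,4,0⟩,⟨(-22557150528281877763037518465243500000),5,0⟩,⟨990327212249555378365109819939399841,6,0⟩]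

/-- Certificate tree. -/
def tnu4 : OutT := (A (A (A (O l) (O l)) (A (A (O l) (O l)) (A (O l) (O l)))) (A (A (O l) (O l)) (O l)))

theorem hnu4 (x : ℝ) (h0 : 0 ≤ x) (h1 : x ≤ 1) : evalIL lnu4 x 0 ≤ 0 :=
  uni_le 6 65536 lnu4 (by norm_num) (by norm_num) (by decide +kernel)
    (chkOut_sound (uniPb 6 65536 lnu4) tnu4 0 32768 0 32768 (by decide +kernel)) x h0 h1

/-- Certificate polynomial. -/
def lnl4 : List ITm := [⟨(-717136154174804687500000000000000000000),0,0⟩,⟨(-281234197540283203125000000000000000000),1,0⟩,⟨857970888174495979980468750000000000000,2,0⟩,⟨278006105834182462187636718750000000000,3,0⟩,⟨(-163774866589506780298199941605468750000),4,0⟩,⟨22557150528281877763037518465243500000,5,0⟩,⟨(-990327212249555378365109819939399841),6,0⟩]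

/-- Certificate tree. -/
def tnl4 : OutT := (A (O l) (A (O l) (A (O l) (A (O l) (O l)))))

theorem hnl4 (x : ℝ) (h0 : 0 ≤ x) (h1 : x ≤ 1) : evalIL lnl4 x 0 ≤ 0 :=
  uni_le 6 65536 lnl4 (by norm_num) (by norm_num) (by decide +kernel)
    (chkOut_sound (uniPb 6 65536 lnl4) tnl4 0 32768 0 32768 (by decide +kernel)) x h0 h1

theorem apx4 (u : ℝ) (h0 : -(35721 / 250000 : ℝ) ≤ u) (h1 : u ≤ 2 * (35721 / 250000 : ℝ)) :
    |((1 + u)⁻¹) ^ 4 - evalZ Ax.p4 (3 * u) / Ax.D4| ≤ Ax.e4 * |u| ^ Ax.m4 := by
  have hu : 0 < 1 + u := by norm_num at h0 ⊢; linarith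
  refine apx_of_S 4 2 _ (S4 u) _ u hu ?_ ?_ ?_
  · simp only [Ax, evalZ_cons, evalZ_nil, S4]
    push_cast
    ring
  · rcases le_total 0 u with hs | hs
    · have hx := hpu4 (u / (2 * (35721 / 250000 : ℝ))) (by positivity) (by rw [div_le_one (by norm_num)]; exact h1)
      have e : evalIL lpu4 (u / (2 * (35721 / 250000 : ℝ))) 0 = 64000000000000000000000000000000000000 * (S4 u - Ax.e4 * (1 + u) ^ 4) := by
        simp only [lpu4, evalIL, List.map_cons, List.map_nil, List.sum_cons, List.sum_nil, S4, Ax]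
        push_cast
        ring
      rw [e] at hx
      have := cmul_nonpos (by norm_num) hx
      simp only [Ax] at this ⊢
      linarith
    · have hx := hnu4 (-u / (35721 / 250000 : ℝ)) (by apply div_nonneg <;> [linarith; norm_num]) (by rw [div_le_one (by norm_num)]; linarith)
      have e : evalIL lnu4 (-u / (35721 / 250000 : ℝ)) 0 = 4096000000000000000000000000000000000000 * (S4 u - Ax.e4 * (1 + u) ^ 4) := by
        simp only [lnu4, evalIL, List.map_cons, List.map_nil, List.sum_cons, List.sum_nil, S4, Ax]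
        push_cast
        ring
      rw [e] at hx
      have := cmul_nonpos (by norm_num) hx
      simp only [Ax] at this ⊢
      linarith
  · rcases le_total 0 u with hs | hs
    · have hx := hpl4 (u / (2 * (35721 / 250000 : ℝ))) (by positivity) (by rw [div_le_one (by norm_num)]; exact h1)
      have e : evalIL lpl4 (u / (2 * (35721 / 250000 : ℝ))) 0 = 64000000000000000000000000000000000000 * (-S4 u - Ax.e4 * (1 + u) ^ 4) := by
        simp only [lpl4, evalIL, List.map_cons, List.map_nil, List.sum_cons, List.sum_nil, S4, Ax]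
        push_cast
        ring
      rw [e] at hx
      have := cmul_nonpos (by norm_num) hx
      simp only [Ax] at this ⊢
      linarith
    · have hx := hnl4 (-u / (35721 / 250000 : ℝ)) (by apply div_nonneg <;> [linarith; norm_num]) (by rw [div_le_one (by norm_num)]; linarith)
      have e : evalIL lnl4 (-u / (35721 / 250000 : ℝ)) 0 = 4096000000000000000000000000000000000000 * (-S4 u - Ax.e4 * (1 + u) ^ 4) := by
        simp only [lnl4, evalIL, List.map_cons, List.map_nil, List.sum_cons, List.sum_nil, S4, Ax]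
        push_cast
        ring
      rw [e] at hx
      have := cmul_nonpos (by norm_num) hx
      simp only [Ax] at this ⊢
      linarith

/-- The quotient polynomial for `j = 5`. -/
noncomputable def S5 (u : ℝ) : ℝ :=
  (616523 / 4194304 : ℝ) * u ^ 0 + (-4100687 / 2097152 : ℝ) * u ^ 1 + (-432451799 / 16777216 : ℝ) * u ^ 2 + (530065881 / 16777216 : ℝ) * u ^ 3 + (2146536115 / 8388608 : ℝ) * u ^ 4 + (3261076781 / 8388608 : ℝ) * u ^ 5 + (4082522389 / 16777216 : ℝ) * u ^ 6 + (942972181 / 16777216 : ℝ) * u ^ 7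

/-- Certificate polynomial. -/
def lpu5 : List ITm := [⟨(-703104510903358459472656250000000000000000),0,0⟩,⟨(-7155065912789940834045410156250000000000000),1,0⟩,⟨(-18374202672071913888931274414062500000000000),2,0⟩,⟨5459983701548528527237106323242187500000000,3,0⟩,⟨13589231163994388983124590155944824218750000,4,0⟩,⟨5923339329320704846614804805322995605468750,5,0⟩,⟨1060181540607288993188245018818579608625000,6,0⟩,⟨69978421042280123320725319323792208627821,7,0⟩]

/-- Certificate tree. -/
def tpu5 : OutT := (A (A (O l) (O l)) (A (O l) (A (O l) (A (O l) (O l)))))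

theorem hpu5 (x : ℝ) (h0 : 0 ≤ x) (h1 : x ≤ 1) : evalIL lpu5 x 0 ≤ 0 :=
  uni_le 7 65536 lpu5 (by norm_num) (by norm_num) (by decide +kernel)
    (chkOut_sound (uniPb 7 65536 lpu5) tpu5 0 32768 0 32768 (by decide +kernel)) x h0 h1

/-- Certificate polynomial. -/
def lpl5 : List ITm := [⟨(-3054953113198280334472656250000000000000000),0,0⟩,⟨1785402857168555259704589843750000000000000,1,0⟩,⟨15305246927914289663314819335937500000000000,2,0⟩,⟨(-6336993046644964486943069458007812500000000),3,0⟩,⟨(-13714541767259148138791216992492675781250000),4,0⟩,⟨(-5930501281415457585494112928888316894531250),5,0⟩,⟨(-1060181540607288993188245018818579608625000),6,0⟩,⟨(-69978421042280123320725319323792208627821),7,0⟩]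

/-- Certificate tree. -/
def tpl5 : OutT := (A (A (O l) (A (O l) (A (O l) (O l)))) (A (A (A (A (O l) (O l)) (A (O l) (O l))) (A (O l) (O l))) (A (O l) (O l))))

theorem hpl5 (x : ℝ) (h0 : 0 ≤ x) (h1 : x ≤ 1) : evalIL lpl5 x 0 ≤ 0 :=
  uni_le 7 65536 lpl5 (by norm_num) (by norm_num) (by decide +kernel)
    (chkOut_sound (uniPb 7 65536 lpl5) tpl5 0 32768 0 32768 (by decide +kernel)) x h0 h1

/-- Certificate polynomial. -/
def lnu5 : List ITm := [⟨(-89997377395629882812500000000000000000000000),0,0⟩,⟨457924218418556213378906250000000000000000000,1,0⟩,⟨(-587974485506301244445800781250000000000000000),2,0⟩,⟨(-87359739224776456435793701171875000000000000),3,0⟩,⟨108713849311955111864996721247558593750000000,4,0⟩,⟨(-23693357317282819386459219221291982421875000),5,0⟩,⟨2120363081214577986376490037637159217250000,6,0⟩,⟨(-69978421042280123320725319323792208627821),7,0⟩]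

/-- Certificate tree. -/
def tnu5 : OutT := (A (A (A (O l) (O l)) (A (A (O l) (O l)) (A (O l) (O l)))) (A (A (O l) (O l)) (O l)))

theorem hnu5 (x : ℝ) (h0 : 0 ≤ x) (h1 : x ≤ 1) : evalIL lnu5 x 0 ≤ 0 :=
  uni_le 7 65536 lnu5 (by norm_num) (by norm_num) (by decide +kernel)
    (chkOut_sound (uniPb 7 65536 lnu5) tnu5 0 32768 0 32768 (by decide +kernel)) x h0 h1

/-- Certificate polynomial. -/
def lnl5 : List ITm := [⟨(-391033998489379882812500000000000000000000000),0,0⟩,⟨(-114265782858787536621093750000000000000000000),1,0⟩,⟨489767901693257269226074218750000000000000000,2,0⟩,⟨101391888746319431791089111328125000000000000,3,0⟩,⟨(-109716334138073185110329735939941406250000000),4,0⟩,⟨23722005125661830341976451715553267578125000,5,0⟩,⟨(-2120363081214577986376490037637159217250000),6,0⟩,⟨69978421042280123320725319323792208627821,7,0⟩]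

/-- Certificate tree. -/
def tnl5 : OutT := (A (O l) (A (O l) (A (O l) (A (O l) (O l)))))

theorem hnl5 (x : ℝ) (h0 : 0 ≤ x) (h1 : x ≤ 1) : evalIL lnl5 x 0 ≤ 0 :=
  uni_le 7 65536 lnl5 (by norm_num) (by norm_num) (by decide +kernel)
    (chkOut_sound (uniPb 7 65536 lnl5) tnl5 0 32768 0 32768 (by decide +kernel)) x h0 h1

theorem apx5 (u : ℝ) (h0 : -(35721 / 250000 : ℝ) ≤ u) (h1 : u ≤ 2 * (35721 / 250000 : ℝ)) :
    |((1 + u)⁻¹) ^ 5 - evalZ Ax.p5 (3 * u) / Ax.D5| ≤ Ax.e5 * |u| ^ Ax.m5 := by
  have hu : 0 < 1 + u := by norm_num at h0 ⊢; linarith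
  refine apx_of_S 5 2 _ (S5 u) _ u hu ?_ ?_ ?_
  · simp only [Ax, evalZ_cons, evalZ_nil, S5]
    push_cast
    ring
  · rcases le_total 0 u with hs | hs
    · have hx := hpu5 (u / (2 * (35721 / 250000 : ℝ))) (by positivity) (by rw [div_le_one (by norm_num)]; exact h1)
      have e : evalIL lpu5 (u / (2 * (35721 / 250000 : ℝ))) 0 = 8000000000000000000000000000000000000000000 * (S5 u - Ax.e5 * (1 + u) ^ 5) := by
        simp only [lpu5, evalIL, List.map_cons, List.map_nil, List.sum_cons, List.sum_nil, S5, Ax]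
        push_cast
        ring
      rw [e] at hx
      have := cmul_nonpos (by norm_num) hx
      simp only [Ax] at this ⊢
      linarith
    · have hx := hnu5 (-u / (35721 / 250000 : ℝ)) (by apply div_nonneg <;> [linarith; norm_num]) (by rw [div_le_one (by norm_num)]; linarith)
      have e : evalIL lnu5 (-u / (35721 / 250000 : ℝ)) 0 = 1024000000000000000000000000000000000000000000 * (S5 u - Ax.e5 * (1 + u) ^ 5) := by
        simp only [lnu5, evalIL, List.map_cons, List.map_nil, List.sum_cons, List.sum_nil, S5, Ax]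
        push_cast
        ring
      rw [e] at hx
      have := cmul_nonpos (by norm_num) hx
      simp only [Ax] at this ⊢
      linarith
  · rcases le_total 0 u with hs | hs
    · have hx := hpl5 (u / (2 * (35721 / 250000 : ℝ))) (by positivity) (by rw [div_le_one (by norm_num)]; exact h1)
      have e : evalIL lpl5 (u / (2 * (35721 / 250000 : ℝ))) 0 = 8000000000000000000000000000000000000000000 * (-S5 u - Ax.e5 * (1 + u) ^ 5) := by
        simp only [lpl5, evalIL, List.map_cons, List.map_nil, List.sum_cons, List.sum_nil, S5, Ax]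
        push_cast
        ring
      rw [e] at hx
      have := cmul_nonpos (by norm_num) hx
      simp only [Ax] at this ⊢
      linarith
    · have hx := hnl5 (-u / (35721 / 250000 : ℝ)) (by apply div_nonneg <;> [linarith; norm_num]) (by rw [div_le_one (by norm_num)]; linarith)
      have e : evalIL lnl5 (-u / (35721 / 250000 : ℝ)) 0 = 1024000000000000000000000000000000000000000000 * (-S5 u - Ax.e5 * (1 + u) ^ 5) := by
        simp only [lnl5, evalIL, List.map_cons, List.map_nil, List.sum_cons, List.sum_nil, S5, Ax]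
        push_cast
        ring
      rw [e] at hx
      have := cmul_nonpos (by norm_num) hx
      simp only [Ax] at this ⊢
      linarith

theorem hAx : Ax.OK (-(35721 / 250000 : ℝ)) (2 * (35721 / 250000 : ℝ)) where
  e10 := by simp only [Ax]; norm_num
  e20 := by simp only [Ax]; norm_num
  e30 := by simp only [Ax]; norm_num
  e40 := by simp only [Ax]; norm_num
  e50 := by simp only [Ax]; norm_num
  h1 := fun u a b => by simpa using apx1 u a b
  h2 := apx2
  h3 := apx3
  h4 := apx4
  h5 := apx5

end Vale.Agent.P154.D7.K5
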