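import Vale.Agent.P154.D7.K5.Data
import Vale.Agent.P154.Check2

namespace Vale.Agent.P154.D7.K5

open Cert

/-- Chart (0, 0). -/
def P00 : Pb := chartPb false false Nd w G []

/-- Chart (0, 1). -/
def P01 : Pb := chartPb false true Nd w G []

/-- Chart (1, 0). -/
def P10 : Pb := chartPb true false Nd w G []

/-- Chart (1, 1). -/
def P11 : Pb := chartPb true true Nd w G []

/-- The offset. -/
def KK : ℕ := 13656093558537941553315536467397135968552465044102979912491535998492748263050510482475893147384943187441520456895351276433180265787636459684584153195173539934402882722844701815732384329547395122644920353046295760858502651980751792724303620866048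

end Vale.Agent.P154.D7.K5
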